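import Vale.Agent.Lib.P335.Jo.Defs
import Vale.Agent.Lib.P335.John.J1Bridge

/-!
# P335 / Johnson set, leaf JB: basic facts on `Dq` and `symmDiff`
-/

namespace Vale.Agent.Lib.P335.Jo

open Finset

variable {α : Type*} [Fintype α] [DecidableEq α]

omit [Fintype α] in
/-- For a pair `{x, y}`: exactly one of `x, y` lies in `J`. -/
theorem dq_pair_iff {x y : α} (hxy : x ≠ y) (J : Finset α) :
    Dq {x, y} J ↔ (x ∈ J ↔ y ∉ J) := by
  unfold Dq
  by_cases hx : x ∈ J <;> by_cases hy : y ∈ J
  · rw [Finset.inter_insert_of_mem hx, Finset.inter_singleton_of_mem hy,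
      Finset.card_pair hxy]
    simp [hx, hy]
  · rw [Finset.inter_insert_of_mem hx, Finset.inter_singleton_of_notMem hy]
    simp [hx, hy]
  · rw [Finset.inter_insert_of_notMem hx, Finset.inter_singleton_of_mem hy]
    simp [hx, hy]
  · rw [Finset.inter_insert_of_notMem hx, Finset.inter_singleton_of_notMem hy]
    simp [hx, hy]

omit [Fintype α] in
theorem symmDiff_inter_self (J q : Finset α) : symmDiff J q ∩ q = q \ J := by
  ext x
  simp only [Finset.mem_inter, Finset.mem_symmDiff, Finset.mem_sdiff]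
  tauto

omit [Fintype α] in
theorem dq_symmDiff {q J : Finset α} (hq : q.card = 2) (h : Dq q J) : Dq q (symmDiff J q) := by
  unfold Dq at h ⊢
  rw [symmDiff_inter_self]
  have h1 := Finset.card_sdiff_add_card_inter q J
  rw [Finset.inter_comm] at h1
  omega

omit [Fintype α] in
theorem card_symmDiff_of_dq {q J : Finset α} (hq : q.card = 2) (h : Dq q J) :
    (symmDiff J q).card = J.card := by
  unfold Dq at h
  have h1 := Finset.card_sdiff_add_card_inter q J
  rw [Finset.inter_comm] at h1
  have h2 := Finset.card_sdiff_add_card_inter J q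
  have h3 : symmDiff J q = (J \ q) ∪ (q \ J) := rfl
  have h4 : Disjoint (J \ q) (q \ J) := disjoint_sdiff_sdiff
  rw [h3, Finset.card_union_of_disjoint h4]
  omega

omit [Fintype α] in
theorem symmDiff_ne_of_dq {q J : Finset α} (h : Dq q J) : symmDiff J q ≠ J := by
  intro he
  have hq : q = ∅ := by
    have := symmDiff_eq_left.mp he
    simpa using this
  unfold Dq at h
  rw [hq] at h
  simp at h

omit [Fintype α] in
/-- Parity: for two pairs with one common element, the flip at `q` toggles `Dq q'`. -/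
theorem dq_symmDiff_of_inter {q q' : Finset α} (hq : q.card = 2) (hq' : q'.card = 2)
    (h : (q ∩ q').card = 1) (J : Finset α) : Dq q' (symmDiff J q) ↔ ¬ Dq q' J := by
  have _hq := hq
  obtain ⟨x, y, hxy, rfl⟩ := Finset.card_eq_two.mp hq'
  have h' : Dq {x, y} q := h
  rw [dq_pair_iff hxy] at h'
  rw [dq_pair_iff hxy, dq_pair_iff hxy]
  simp only [Finset.mem_symmDiff]
  tauto

omit [Fintype α] in
theorem dq_symmDiff_of_disjoint {q q' : Finset α} (h : Disjoint q q') (J : Finset α) :
    Dq q' (symmDiff J q) ↔ Dq q' J := by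
  have e : symmDiff J q ∩ q' = J ∩ q' := by
    ext x
    simp only [Finset.mem_inter, Finset.mem_symmDiff]
    constructor
    · rintro ⟨h1, h2⟩
      have hx : x ∉ q := Finset.disjoint_right.mp h h2
      tauto
    · rintro ⟨h1, h2⟩
      have hx : x ∉ q := Finset.disjoint_right.mp h h2
      tauto
  unfold Dq
  rw [e]

/-- Every `k`-subset lies in `Dq q` for exactly `k * (m - k)` pairs `q`. -/
theorem card_filter_dq (k : ℕ) {J : Finset α} (hJ : J ∈ Sl α k) :
    ((Pr α).filter (fun q => Dq q J)).card = k * (Fintype.card α - k) := by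
  have hJ' := Finset.mem_powersetCard.mp hJ
  have h := John.sum_pairs_meeting (Finset.univ : Finset α) J hJ'.1 (fun _ => (1 : ℝ))
  have e1 : ∑ q ∈ (Pr α).filter (fun q => Dq q J), (1 : ℝ)
      = (((Pr α).filter (fun q => Dq q J)).card : ℝ) := by
    rw [Finset.sum_const, nsmul_eq_mul, mul_one]
  have e2 : ∑ b ∈ J, ∑ c ∈ (Finset.univ : Finset α) \ J, (1 : ℝ)
      = ((k * (Fintype.card α - k) : ℕ) : ℝ) := by
    rw [Finset.sum_const, Finset.sum_const, nsmul_eq_mul, nsmul_eq_mul, mul_one, hJ'.2,
      Finset.card_sdiff_of_subset hJ'.1, Finset.card_univ, hJ'.2]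
    push_cast
    ring
  have e3 : (((Pr α).filter (fun q => Dq q J)).card : ℝ)
      = ((k * (Fintype.card α - k) : ℕ) : ℝ) := by
    rw [← e1, ← e2]
    exact h
  exact_mod_cast e3

end Vale.Agent.Lib.P335.Jo
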