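import Mathlib

/-!
# P335 / Johnson set: definitions

`α` is a finite type (the free columns of a pair fibre).  `Sl α k` is the set of `k`-subsets of
`α`, `Pr α` the set of pairs; for a pair `q` a set `J` is in `Dq q` when exactly one element of
`q` lies in `J`, and then `symmDiff J q` exchanges the two elements of `q` in `J`.
-/

namespace Vale.Agent.Lib.P335.Jo

open Finset

variable {α : Type*} [Fintype α] [DecidableEq α]

/-- The `k`-subsets of `α`. -/
def Sl (α : Type*) [Fintype α] (k : ℕ) : Finset (Finset α) := (univ : Finset α).powersetCard k

/-- The pairs of `α`. -/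
def Pr (α : Type*) [Fintype α] : Finset (Finset α) := (univ : Finset α).powersetCard 2

/-- Exactly one element of `q` lies in `J`. -/
def Dq (q J : Finset α) : Prop := (J ∩ q).card = 1

instance (q J : Finset α) : Decidable (Dq q J) :=
  inferInstanceAs (Decidable ((J ∩ q).card = 1))

/-- The `k`-subsets which contain exactly one element of `q`. -/
def DS (k : ℕ) (q : Finset α) : Finset (Finset α) := (Sl α k).filter (fun J => Dq q J)

end Vale.Agent.Lib.P335.Jo
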