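import Vale.Agent.Lib.P335.Jo.Defs
import Vale.Agent.Lib.P335.John.J1Bridge

/-!
# P335 / Johnson set, leaf J2de: the Gram bound (pure algebra on the pairs of `α`)
-/

namespace Vale.Agent.Lib.P335.Jo

open Finset

variable {α : Type*} [Fintype α] [DecidableEq α]

/-- Indicator of membership. -/
noncomputable def ind (y : α) (q : Finset α) : ℝ := if y ∈ q then 1 else 0

theorem sum_ind (q : Finset α) : ∑ y : α, ind y q = (q.card : ℝ) := by
  unfold ind
  rw [Finset.sum_boole]
  congr 2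
  ext y
  simp

omit [Fintype α] in
theorem ind_mul_self (y : α) (q : Finset α) : ind y q * ind y q = ind y q := by
  unfold ind
  by_cases h : y ∈ q
  · rw [if_pos h]; ring
  · rw [if_neg h]; ring

theorem inter_card_eq_sum (q q' : Finset α) :
    ((q ∩ q').card : ℝ) = ∑ y : α, ind y q * ind y q' := by
  rw [← sum_ind (q ∩ q')]
  refine Finset.sum_congr rfl (fun y _ => ?_)
  unfold ind
  by_cases h1 : y ∈ q <;> by_cases h2 : y ∈ q' <;> simp [h1, h2]

theorem sum_ind_pairs (y : α) :
    ∑ q ∈ Pr α, ind y q = (Fintype.card α : ℝ) - 1 := by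
  have h := John.sum_pairs_meeting (Finset.univ : Finset α) {y} (Finset.subset_univ _)
    (fun _ => (1 : ℝ))
  have e1 : ∑ q ∈ Pr α, ind y q
      = ∑ q ∈ (Pr α).filter (fun q => (({y} : Finset α) ∩ q).card = 1), (1 : ℝ) := by
    rw [Finset.sum_filter]
    refine Finset.sum_congr rfl (fun q _ => ?_)
    unfold ind
    by_cases hy : y ∈ q
    · rw [if_pos hy, Finset.singleton_inter_of_mem hy, Finset.card_singleton, if_pos rfl]
    · rw [if_neg hy, Finset.singleton_inter_of_notMem hy, Finset.card_empty,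
        if_neg (by norm_num)]
  have e2 : ∑ b ∈ ({y} : Finset α), ∑ c ∈ (Finset.univ : Finset α) \ {y}, (1 : ℝ)
      = (Fintype.card α : ℝ) - 1 := by
    rw [Finset.sum_singleton, Finset.sum_const, nsmul_eq_mul, mul_one,
      Finset.card_sdiff_of_subset (Finset.subset_univ _), Finset.card_univ,
      Finset.card_singleton]
    have hpos : 1 ≤ Fintype.card α := Fintype.card_pos_iff.mpr ⟨y⟩
    push_cast [Nat.cast_sub hpos]
    ring
  rw [e1, ← e2]
  exact h

theorem sum_ind_ind_pairs {y z : α} (hyz : y ≠ z) :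
    ∑ q ∈ Pr α, ind y q * ind z q = 1 := by
  have hset : (Pr α).filter (fun q => y ∈ q ∧ z ∈ q) = {{y, z}} := by
    ext q
    simp only [Pr, Finset.mem_filter, Finset.mem_powersetCard, Finset.subset_univ, true_and,
      Finset.mem_singleton]
    constructor
    · rintro ⟨hc, hy, hz⟩
      symm
      apply Finset.eq_of_subset_of_card_le
      · intro x hx
        rw [Finset.mem_insert, Finset.mem_singleton] at hx
        rcases hx with rfl | rfl
        · exact hy
        · exact hz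
      · rw [hc, Finset.card_pair hyz]
    · rintro rfl
      exact ⟨Finset.card_pair hyz, Finset.mem_insert_self _ _,
        Finset.mem_insert_of_mem (Finset.mem_singleton_self _)⟩
  have e1 : ∑ q ∈ Pr α, ind y q * ind z q
      = ∑ q ∈ (Pr α).filter (fun q => y ∈ q ∧ z ∈ q), (1 : ℝ) := by
    rw [Finset.sum_filter]
    refine Finset.sum_congr rfl (fun q _ => ?_)
    unfold ind
    by_cases h1 : y ∈ q <;> by_cases h2 : z ∈ q <;> simp [h1, h2]
  rw [e1, hset, Finset.sum_singleton]

/-- The row sums `R y = ∑_{q ∋ y} θ q` of a function on pairs with zero total satisfy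
`0 ≤ (m - 2) * ((m - 2) * ∑ θ² - ∑ R²)`. -/
theorem row_sum_bound (θ : Finset α → ℝ) (hθ : ∑ q ∈ Pr α, θ q = 0) :
    ((Fintype.card α : ℝ) - 2) * ∑ y : α, (∑ q ∈ Pr α, ind y q * θ q) ^ 2
      ≤ ((Fintype.card α : ℝ) - 2) ^ 2 * ∑ q ∈ Pr α, θ q ^ 2 := by
  obtain ⟨M, hM⟩ : ∃ M : ℝ, M = (Fintype.card α : ℝ) := ⟨_, rfl⟩
  obtain ⟨R, hR⟩ : ∃ R : α → ℝ, R = fun y => ∑ q ∈ Pr α, ind y q * θ q := ⟨_, rfl⟩
  obtain ⟨S, hS⟩ : ∃ S : Finset α → ℝ, S = fun q => ∑ y : α, ind y q * R y := ⟨_, rfl⟩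
  rw [← hM]
  have hRy : ∀ y, R y = ∑ q ∈ Pr α, ind y q * θ q := fun y => by rw [hR]
  have hSq : ∀ q, S q = ∑ y : α, ind y q * R y := fun q => by rw [hS]
  have goal_eq : ∑ y : α, (∑ q ∈ Pr α, ind y q * θ q) ^ 2 = ∑ y : α, R y ^ 2 :=
    Finset.sum_congr rfl (fun y _ => by rw [hRy y])
  rw [goal_eq]
  -- total of the row sums
  have f1 : ∑ y : α, R y = 0 := by
    have e : ∑ y : α, R y = ∑ q ∈ Pr α, (q.card : ℝ) * θ q := by
      rw [Finset.sum_congr rfl (fun y _ => hRy y), Finset.sum_comm]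
      refine Finset.sum_congr rfl (fun q _ => ?_)
      rw [← Finset.sum_mul, sum_ind]
    rw [e]
    have e2 : ∑ q ∈ Pr α, (q.card : ℝ) * θ q = ∑ q ∈ Pr α, 2 * θ q := by
      refine Finset.sum_congr rfl (fun q hq => ?_)
      rw [(Finset.mem_powersetCard.mp hq).2]
      norm_num
    rw [e2, ← Finset.mul_sum, hθ, mul_zero]
  -- cross term
  have f2 : ∑ q ∈ Pr α, θ q * S q = ∑ y : α, R y ^ 2 := by
    have e : ∑ q ∈ Pr α, θ q * S q = ∑ q ∈ Pr α, ∑ y : α, R y * (ind y q * θ q) := by
      refine Finset.sum_congr rfl (fun q _ => ?_)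
      rw [hSq q, Finset.mul_sum]
      refine Finset.sum_congr rfl (fun y _ => ?_)
      ring
    rw [e, Finset.sum_comm]
    refine Finset.sum_congr rfl (fun y _ => ?_)
    rw [← Finset.mul_sum, ← hRy y]
    ring
  -- square term
  have f3 : ∑ q ∈ Pr α, S q ^ 2 = (M - 2) * ∑ y : α, R y ^ 2 + (∑ y : α, R y) ^ 2 := by
    have e : ∀ q, S q ^ 2 = ∑ y : α, ∑ z : α, (R y * R z) * (ind y q * ind z q) := by
      intro q
      rw [hSq q, sq, Finset.sum_mul_sum]
      refine Finset.sum_congr rfl (fun y _ => Finset.sum_congr rfl (fun z _ => ?_))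
      ring
    have e2 : ∑ q ∈ Pr α, S q ^ 2
        = ∑ y : α, ∑ z : α, (R y * R z) * ∑ q ∈ Pr α, ind y q * ind z q := by
      rw [Finset.sum_congr rfl (fun q _ => e q), Finset.sum_comm]
      refine Finset.sum_congr rfl (fun y _ => ?_)
      rw [Finset.sum_comm]
      refine Finset.sum_congr rfl (fun z _ => ?_)
      exact (Finset.mul_sum _ _ _).symm
    have e3 : ∀ y z : α, ∑ q ∈ Pr α, ind y q * ind z q
        = 1 + (M - 2) * (if y = z then 1 else 0) := by
      intro y z
      by_cases hyz : y = z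
      · subst hyz
        rw [if_pos rfl, Finset.sum_congr rfl (fun q _ => ind_mul_self y q), sum_ind_pairs, hM]
        ring
      · rw [if_neg hyz, sum_ind_ind_pairs hyz]
        ring
    rw [e2]
    have e4 : ∑ y : α, ∑ z : α, (R y * R z) * ∑ q ∈ Pr α, ind y q * ind z q
        = ∑ y : α, ∑ z : α, (R y * R z + (M - 2) * (if y = z then R y * R z else 0)) := by
      refine Finset.sum_congr rfl (fun y _ => Finset.sum_congr rfl (fun z _ => ?_))
      rw [e3 y z]
      by_cases hyz : y = z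
      · rw [if_pos hyz, if_pos hyz]; ring
      · rw [if_neg hyz, if_neg hyz]; ring
    rw [e4]
    have e5 : ∀ y : α, ∑ z : α, (R y * R z + (M - 2) * (if y = z then R y * R z else 0))
        = R y * ∑ z : α, R z + (M - 2) * R y ^ 2 := by
      intro y
      rw [Finset.sum_add_distrib, ← Finset.mul_sum, ← Finset.mul_sum, Finset.sum_ite_eq,
        if_pos (Finset.mem_univ y)]
      ring
    rw [Finset.sum_congr rfl (fun y _ => e5 y), Finset.sum_add_distrib, ← Finset.sum_mul,
      ← Finset.mul_sum]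
    ring
  -- the sum of squares
  have sos : 0 ≤ ∑ q ∈ Pr α, ((M - 2) * θ q - S q) ^ 2 :=
    Finset.sum_nonneg (fun q _ => sq_nonneg _)
  have e : ∑ q ∈ Pr α, ((M - 2) * θ q - S q) ^ 2
      = (M - 2) ^ 2 * ∑ q ∈ Pr α, θ q ^ 2 - 2 * (M - 2) * ∑ q ∈ Pr α, θ q * S q
        + ∑ q ∈ Pr α, S q ^ 2 := by
    rw [Finset.mul_sum, Finset.mul_sum, ← Finset.sum_sub_distrib, ← Finset.sum_add_distrib]
    refine Finset.sum_congr rfl (fun q _ => ?_)
    ring
  rw [e, f2, f3, f1] at sos
  nlinarith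

theorem gram_bound (θ : Finset α → ℝ) (hθ : ∑ q ∈ Pr α, θ q = 0)
    (c : Finset α → Finset α → ℝ) (nD n4 : ℝ) (h0 : 0 ≤ n4) (h1 : n4 ≤ nD)
    (hdiag : ∀ q ∈ Pr α, c q q = nD)
    (hovl : ∀ q ∈ Pr α, ∀ q' ∈ Pr α, (q ∩ q').card = 1 → c q q' = nD / 2)
    (hdsj : ∀ q ∈ Pr α, ∀ q' ∈ Pr α, Disjoint q q' → c q q' = n4) :
    ∑ q ∈ Pr α, ∑ q' ∈ Pr α, θ q * θ q' * c q q'
      ≤ ((Fintype.card α : ℝ) - 2) / 2 * nD * ∑ q ∈ Pr α, θ q ^ 2 := by
  obtain ⟨M, hM⟩ : ∃ M : ℝ, M = (Fintype.card α : ℝ) := ⟨_, rfl⟩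
  rw [← hM]
  by_cases hm2 : Fintype.card α ≤ 2
  · -- at most one pair: `θ` vanishes on the pairs
    have hcard : (Pr α).card ≤ 1 := by
      unfold Pr
      rw [Finset.card_powersetCard, Finset.card_univ]
      have h012 : Fintype.card α = 0 ∨ Fintype.card α = 1 ∨ Fintype.card α = 2 := by omega
      rcases h012 with h | h | h <;> rw [h] <;> decide
    rw [Finset.card_le_one] at hcard
    have hall : ∀ q ∈ Pr α, θ q = 0 := by
      intro q hq
      have h2 : ∑ q' ∈ Pr α, θ q' = θ q :=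
        Finset.sum_eq_single_of_mem q hq (fun b hb hne => absurd (hcard b hb q hq) hne)
      rw [← h2]
      exact hθ
    have hL : ∑ q ∈ Pr α, ∑ q' ∈ Pr α, θ q * θ q' * c q q' = 0 :=
      Finset.sum_eq_zero (fun q hq => Finset.sum_eq_zero (fun q' _ => by
        rw [hall q hq]; ring))
    have hT : ∑ q ∈ Pr α, θ q ^ 2 = 0 :=
      Finset.sum_eq_zero (fun q hq => by rw [hall q hq]; ring)
    rw [hL, hT, mul_zero]
  · have hm3 : 3 ≤ Fintype.card α := by omega
    have hM3 : (3 : ℝ) ≤ M := by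
      rw [hM]
      exact_mod_cast hm3
    obtain ⟨n4', hn4'⟩ : ∃ n4' : ℝ, n4' = if Fintype.card α = 3 then 0 else n4 := ⟨_, rfl⟩
    have h0' : 0 ≤ n4' := by
      rw [hn4']
      by_cases h3 : Fintype.card α = 3
      · rw [if_pos h3]
      · rw [if_neg h3]; exact h0
    have h1' : n4' ≤ nD := by
      rw [hn4']
      by_cases h3 : Fintype.card α = 3
      · rw [if_pos h3]; exact h0.trans h1
      · rw [if_neg h3]; exact h1
    have h4 : n4' ≠ 0 → (4 : ℝ) ≤ M := by
      intro hne
      have h3 : Fintype.card α ≠ 3 := by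
        intro h3
        apply hne
        rw [hn4', if_pos h3]
      have h4' : 4 ≤ Fintype.card α := by omega
      rw [hM]
      exact_mod_cast h4'
    -- the entries of `c` in closed form
    have G1 : ∀ q ∈ Pr α, ∀ q' ∈ Pr α, c q q'
        = n4' + (nD / 2 - n4') * ((q ∩ q').card : ℝ) + n4' * (if q = q' then 1 else 0) := by
      intro q hq q' hq'
      have hqc := (Finset.mem_powersetCard.mp hq).2
      have hqc' := (Finset.mem_powersetCard.mp hq').2
      have hle : (q ∩ q').card ≤ 2 := by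
        have := Finset.card_le_card (Finset.inter_subset_left : q ∩ q' ⊆ q)
        omega
      have h012 : (q ∩ q').card = 0 ∨ (q ∩ q').card = 1 ∨ (q ∩ q').card = 2 := by omega
      rcases h012 with hk | hk | hk
      · have hd : Disjoint q q' := by
          rw [Finset.disjoint_iff_inter_eq_empty]
          exact Finset.card_eq_zero.mp hk
        have hne : q ≠ q' := by
          rintro rfl
          rw [Finset.inter_self] at hk
          omega
        have h3 : Fintype.card α ≠ 3 := by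
          intro h3
          have h5 := Finset.card_le_univ (q ∪ q')
          rw [Finset.card_union_of_disjoint hd, hqc, hqc', h3] at h5
          omega
        rw [hdsj q hq q' hq' hd, if_neg hne, hn4', if_neg h3, hk]
        push_cast
        ring
      · have hne : q ≠ q' := by
          rintro rfl
          rw [Finset.inter_self] at hk
          omega
        rw [hovl q hq q' hq' hk, if_neg hne, hk]
        push_cast
        ring
      · have h5 : q ∩ q' = q :=
          Finset.eq_of_subset_of_card_le Finset.inter_subset_left (by omega)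
        have hsub : q ⊆ q' := by
          rw [← h5]
          exact Finset.inter_subset_right
        have heq : q = q' := Finset.eq_of_subset_of_card_le hsub (by omega)
        subst heq
        rw [hdiag q hq, if_pos rfl, hk]
        push_cast
        ring
    obtain ⟨RR, hRR⟩ : ∃ RR : ℝ, RR = ∑ y : α, (∑ q ∈ Pr α, ind y q * θ q) ^ 2 := ⟨_, rfl⟩
    obtain ⟨T, hT⟩ : ∃ T : ℝ, T = ∑ q ∈ Pr α, θ q ^ 2 := ⟨_, rfl⟩
    have hRR0 : 0 ≤ RR := by
      rw [hRR]
      exact Finset.sum_nonneg (fun y _ => sq_nonneg _)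
    have hT0 : 0 ≤ T := by
      rw [hT]
      exact Finset.sum_nonneg (fun q _ => sq_nonneg _)
    have hrow := row_sum_bound θ hθ
    rw [← hM, ← hRR, ← hT] at hrow
    -- the three pieces of the double sum
    have p1 : ∑ q ∈ Pr α, ∑ q' ∈ Pr α, θ q * θ q' = 0 := by
      rw [← Finset.sum_mul_sum (Pr α) (Pr α) θ θ, hθ, mul_zero]
    have p2 : ∑ q ∈ Pr α, ∑ q' ∈ Pr α, θ q * θ q' * ((q ∩ q').card : ℝ) = RR := by
      rw [hRR]
      have e : ∀ y : α, (∑ q ∈ Pr α, ind y q * θ q) ^ 2
          = ∑ q ∈ Pr α, ∑ q' ∈ Pr α, θ q * θ q' * (ind y q * ind y q') := by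
        intro y
        rw [sq, Finset.sum_mul_sum]
        refine Finset.sum_congr rfl (fun q _ => Finset.sum_congr rfl (fun q' _ => ?_))
        ring
      symm
      calc ∑ y : α, (∑ q ∈ Pr α, ind y q * θ q) ^ 2
          = ∑ y : α, ∑ q ∈ Pr α, ∑ q' ∈ Pr α, θ q * θ q' * (ind y q * ind y q') :=
            Finset.sum_congr rfl (fun y _ => e y)
        _ = ∑ q ∈ Pr α, ∑ y : α, ∑ q' ∈ Pr α, θ q * θ q' * (ind y q * ind y q') :=
            Finset.sum_comm
        _ = ∑ q ∈ Pr α, ∑ q' ∈ Pr α, ∑ y : α, θ q * θ q' * (ind y q * ind y q') :=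
            Finset.sum_congr rfl (fun q _ => Finset.sum_comm)
        _ = ∑ q ∈ Pr α, ∑ q' ∈ Pr α, θ q * θ q' * ((q ∩ q').card : ℝ) :=
            Finset.sum_congr rfl (fun q _ => Finset.sum_congr rfl (fun q' _ => by
              rw [inter_card_eq_sum, Finset.mul_sum]))
    have p3 : ∑ q ∈ Pr α, ∑ q' ∈ Pr α, θ q * θ q' * (if q = q' then (1 : ℝ) else 0) = T := by
      rw [hT]
      refine Finset.sum_congr rfl (fun q hq => ?_)
      have e : ∀ q' ∈ Pr α, θ q * θ q' * (if q = q' then (1 : ℝ) else 0)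
          = if q = q' then θ q ^ 2 else 0 := by
        intro q' _
        by_cases h : q = q'
        · subst h
          rw [if_pos rfl, if_pos rfl]
          ring
        · rw [if_neg h, if_neg h]
          ring
      rw [Finset.sum_congr rfl e, Finset.sum_ite_eq, if_pos hq]
    have hL : ∑ q ∈ Pr α, ∑ q' ∈ Pr α, θ q * θ q' * c q q'
        = (nD / 2 - n4') * RR + n4' * T := by
      have e : ∀ q ∈ Pr α, ∀ q' ∈ Pr α, θ q * θ q' * c q q'
          = n4' * (θ q * θ q') + (nD / 2 - n4') * (θ q * θ q' * ((q ∩ q').card : ℝ))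
            + n4' * (θ q * θ q' * (if q = q' then (1 : ℝ) else 0)) := by
        intro q hq q' hq'
        rw [G1 q hq q' hq']
        ring
      rw [Finset.sum_congr rfl (fun q hq => Finset.sum_congr rfl (fun q' hq' => e q hq q' hq'))]
      have e2 : ∑ q ∈ Pr α, ∑ q' ∈ Pr α,
          (n4' * (θ q * θ q') + (nD / 2 - n4') * (θ q * θ q' * ((q ∩ q').card : ℝ))
            + n4' * (θ q * θ q' * (if q = q' then (1 : ℝ) else 0)))
          = n4' * ∑ q ∈ Pr α, ∑ q' ∈ Pr α, θ q * θ q'
            + (nD / 2 - n4') * ∑ q ∈ Pr α, ∑ q' ∈ Pr α, θ q * θ q' * ((q ∩ q').card : ℝ)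
            + n4' * ∑ q ∈ Pr α, ∑ q' ∈ Pr α,
                θ q * θ q' * (if q = q' then (1 : ℝ) else 0) := by
        simp only [Finset.sum_add_distrib, Finset.mul_sum]
      rw [e2, p1, p2, p3]
      ring
    rw [hL, ← hT]
    have hM2 : 0 < M - 2 := by linarith
    have hRT : RR ≤ (M - 2) * T := by
      have h5 : (M - 2) * RR ≤ (M - 2) * ((M - 2) * T) := by
        have e : (M - 2) ^ 2 * T = (M - 2) * ((M - 2) * T) := by ring
        rw [← e]
        exact hrow
      exact le_of_mul_le_mul_left h5 hM2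
    by_cases hcase : n4' ≤ nD / 2
    · have h6 : (nD / 2 - n4') * RR ≤ (nD / 2 - n4') * ((M - 2) * T) :=
        mul_le_mul_of_nonneg_left hRT (by linarith)
      have h7 : 0 ≤ (M - 3) * (n4' * T) :=
        mul_nonneg (by linarith) (mul_nonneg h0' hT0)
      nlinarith
    · have hlt : nD / 2 < n4' := not_le.mp hcase
      have hne : n4' ≠ 0 := by
        intro h
        rw [h] at hlt h1'
        linarith
      have hM4 := h4 hne
      have h6 : (nD / 2 - n4') * RR ≤ 0 :=
        mul_nonpos_of_nonpos_of_nonneg (by linarith) hRR0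
      have h7 : n4' * T ≤ nD * T := mul_le_mul_of_nonneg_right h1' hT0
      have hnD : 0 ≤ nD := h0'.trans h1'
      have h8 : nD * T ≤ (M - 2) / 2 * nD * T := by
        have h9 : 0 ≤ nD * T := mul_nonneg hnD hT0
        have h10 : (1 : ℝ) ≤ (M - 2) / 2 := by linarith
        nlinarith
      linarith

end Vale.Agent.Lib.P335.Jo
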