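import Vale.Agent.Lib.P335.Jo.Defs
import Vale.Agent.Lib.P335.John.J1Bridge

/-!
# P335 / Johnson set: J1, the sharp Poincare inequality of the Johnson graph on one slice
-/

namespace Vale.Agent.Lib.P335.Jo

open Finset

variable {α : Type*} [Fintype α] [DecidableEq α]

theorem J1 (k : ℕ) (f : Finset α → ℝ) (hf : ∑ J ∈ Sl α k, f J = 0) :
    (Fintype.card α : ℝ) / 2 * ∑ J ∈ Sl α k, f J ^ 2
      ≤ ∑ q ∈ Pr α, 1 / 4 * ∑ J ∈ DS k q, (f J - f (symmDiff J q)) ^ 2 :=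
  John.johnson_J1 k f hf

end Vale.Agent.Lib.P335.Jo
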