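import Vale.Agent.Lib.P335.Jo.Basic

/-!
# P335 / Johnson set, leaf J2bc: zero total and the quadratic expansion
-/

namespace Vale.Agent.Lib.P335.Jo

open Finset

variable {α : Type*} [Fintype α] [DecidableEq α]

theorem sum_theta_eq_zero (k : ℕ) (g : Finset α → ℝ) (hg : ∑ J ∈ Sl α k, g J = 0) :
    ∑ q ∈ Pr α, ∑ J ∈ DS k q, g J = 0 := by
  have h1 : ∀ q ∈ Pr α, ∑ J ∈ DS k q, g J = ∑ J ∈ Sl α k, if Dq q J then g J else 0 := by
    intro q _
    unfold DS
    rw [Finset.sum_filter]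
  rw [Finset.sum_congr rfl h1, Finset.sum_comm]
  have h2 : ∀ J ∈ Sl α k, ∑ q ∈ Pr α, (if Dq q J then g J else 0)
      = ((k * (Fintype.card α - k) : ℕ) : ℝ) * g J := by
    intro J hJ
    rw [← Finset.sum_filter, Finset.sum_const, card_filter_dq k hJ, nsmul_eq_mul]
  rw [Finset.sum_congr rfl h2, ← Finset.mul_sum, hg, mul_zero]

theorem sum_theta_sq (k : ℕ) (g : Finset α → ℝ) :
    ∑ q ∈ Pr α, (∑ J ∈ DS k q, g J) ^ 2
      = ∑ J ∈ Sl α k, g J * ∑ q ∈ Pr α, if Dq q J then ∑ J' ∈ DS k q, g J' else 0 := by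
  have h1 : ∀ q ∈ Pr α, (∑ J ∈ DS k q, g J) ^ 2
      = ∑ J ∈ Sl α k, g J * (if Dq q J then ∑ J' ∈ DS k q, g J' else 0) := by
    intro q _
    have h : ∀ t : ℝ, (∑ J ∈ DS k q, g J) * t
        = ∑ J ∈ Sl α k, g J * (if Dq q J then t else 0) := by
      intro t
      rw [Finset.sum_mul]
      unfold DS
      rw [Finset.sum_filter]
      refine Finset.sum_congr rfl ?_
      intro J _
      split_ifs <;> simp
    rw [sq, h]
  rw [Finset.sum_congr rfl h1, Finset.sum_comm]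
  refine Finset.sum_congr rfl ?_
  intro J _
  rw [Finset.mul_sum]

theorem sum_Theta_sq (k : ℕ) (θ : Finset α → ℝ) :
    ∑ J ∈ Sl α k, (∑ q ∈ Pr α, if Dq q J then θ q else 0) ^ 2
      = ∑ q ∈ Pr α, ∑ q' ∈ Pr α, θ q * θ q' * ((DS k q ∩ DS k q').card : ℝ) := by
  have h1 : ∀ J ∈ Sl α k, (∑ q ∈ Pr α, if Dq q J then θ q else 0) ^ 2
      = ∑ q ∈ Pr α, ∑ q' ∈ Pr α, if Dq q J ∧ Dq q' J then θ q * θ q' else 0 := by
    intro J _
    rw [sq, Finset.sum_mul_sum]
    refine Finset.sum_congr rfl ?_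
    intro q _
    refine Finset.sum_congr rfl ?_
    intro q' _
    by_cases h1 : Dq q J <;> by_cases h2 : Dq q' J <;> simp [h1, h2]
  rw [Finset.sum_congr rfl h1, Finset.sum_comm]
  refine Finset.sum_congr rfl ?_
  intro q _
  rw [Finset.sum_comm]
  refine Finset.sum_congr rfl ?_
  intro q' _
  have h2 : (Sl α k).filter (fun J => Dq q J ∧ Dq q' J) = DS k q ∩ DS k q' := by
    ext J
    simp only [DS, mem_filter, mem_inter]
    tauto
  rw [← Finset.sum_filter, Finset.sum_const, nsmul_eq_mul, mul_comm, h2]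

end Vale.Agent.Lib.P335.Jo
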