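import Vale.Agent.Lib.P335.Jo.Perm
import Vale.Agent.Lib.P335.Jo.Quad
import Vale.Agent.Lib.P335.Jo.Gram

/-!
# P335 / Johnson set, leaf J2f: the frame bound J2
-/

namespace Vale.Agent.Lib.P335.Jo

open Finset

variable {α : Type*} [Fintype α] [DecidableEq α]

theorem J2 (k : ℕ) (f : Finset α → ℝ) (hf : ∑ J ∈ Sl α k, f J = 0)
    (hm : 2 ≤ Fintype.card α) :
    ∑ q ∈ Pr α, (∑ J ∈ DS k q, f J) ^ 2 / ((DS k q).card : ℝ)
      ≤ ((Fintype.card α : ℝ) - 2) / 2 * ∑ J ∈ Sl α k, f J ^ 2 := by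
  obtain ⟨nD, n4, hle, hD, h4⟩ := exists_counts (α := α) k
  obtain ⟨θ, hθ⟩ : ∃ θ : Finset α → ℝ, θ = fun q => ∑ J ∈ DS k q, f J := ⟨_, rfl⟩
  have hθq : ∀ q, θ q = ∑ J ∈ DS k q, f J := fun q => by rw [hθ]
  have hsum0 : ∑ q ∈ Pr α, θ q = 0 := by
    rw [Finset.sum_congr rfl (fun q _ => hθq q)]
    exact sum_theta_eq_zero k f hf
  obtain ⟨Θ, hΘ⟩ : ∃ Θ : Finset α → ℝ,
      Θ = fun J => ∑ q ∈ Pr α, if Dq q J then θ q else 0 := ⟨_, rfl⟩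
  have hΘJ : ∀ J, Θ J = ∑ q ∈ Pr α, if Dq q J then θ q else 0 := fun J => by rw [hΘ]
  obtain ⟨T, hT⟩ : ∃ T : ℝ, T = ∑ q ∈ Pr α, θ q ^ 2 := ⟨_, rfl⟩
  obtain ⟨F2, hF2⟩ : ∃ F2 : ℝ, F2 = ∑ J ∈ Sl α k, f J ^ 2 := ⟨_, rfl⟩
  obtain ⟨c, hc⟩ : ∃ c : ℝ, c = ((Fintype.card α : ℝ) - 2) / 2 := ⟨_, rfl⟩
  have hc0 : 0 ≤ c := by
    rw [hc]
    have : (2 : ℝ) ≤ (Fintype.card α : ℝ) := by exact_mod_cast hm
    linarith
  have hT0 : 0 ≤ T := by
    rw [hT]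
    exact Finset.sum_nonneg (fun q _ => sq_nonneg _)
  have hF0 : 0 ≤ F2 := by
    rw [hF2]
    exact Finset.sum_nonneg (fun J _ => sq_nonneg _)
  have e1 : T = ∑ J ∈ Sl α k, f J * Θ J := by
    rw [hT]
    have h := sum_theta_sq k f
    rw [Finset.sum_congr rfl (fun q _ => by rw [hθq q])]
    rw [h]
    refine Finset.sum_congr rfl (fun J _ => ?_)
    rw [hΘJ J]
    congr 1
    refine Finset.sum_congr rfl (fun q _ => ?_)
    rw [hθq q]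
  have e2 : ∑ J ∈ Sl α k, Θ J ^ 2
      = ∑ q ∈ Pr α, ∑ q' ∈ Pr α, θ q * θ q' * ((DS k q ∩ DS k q').card : ℝ) := by
    rw [Finset.sum_congr rfl (fun J _ => by rw [hΘJ J])]
    exact sum_Theta_sq k θ
  have hg := gram_bound θ hsum0 (fun q q' => ((DS k q ∩ DS k q').card : ℝ)) (nD : ℝ) (n4 : ℝ)
    (Nat.cast_nonneg _) (by exact_mod_cast hle)
    (fun q hq => by
      show ((DS k q ∩ DS k q).card : ℝ) = nD
      rw [Finset.inter_self, hD q hq])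
    (fun q hq q' hq' h => by
      show ((DS k q ∩ DS k q').card : ℝ) = nD / 2
      have h2 := two_mul_card_DS_inter k (Finset.mem_powersetCard.mp hq).2
        (Finset.mem_powersetCard.mp hq').2 h
      rw [hD q hq] at h2
      have h3 : (2 : ℝ) * ((DS k q ∩ DS k q').card : ℝ) = nD := by exact_mod_cast h2
      linarith)
    (fun q hq q' hq' hd => by
      show ((DS k q ∩ DS k q').card : ℝ) = n4
      rw [h4 q hq q' hq' hd])
  rw [← hc, ← hT, ← e2] at hg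
  have cs : (∑ J ∈ Sl α k, f J * Θ J) ^ 2
      ≤ (∑ J ∈ Sl α k, f J ^ 2) * ∑ J ∈ Sl α k, Θ J ^ 2 :=
    Finset.sum_mul_sq_le_sq_mul_sq _ _ _
  rw [← e1, ← hF2] at cs
  have hLHS : ∑ q ∈ Pr α, (∑ J ∈ DS k q, f J) ^ 2 / ((DS k q).card : ℝ) = T / nD := by
    rw [hT, Finset.sum_div]
    refine Finset.sum_congr rfl (fun q hq => ?_)
    rw [hD q hq, hθq q]
  rw [hLHS, ← hc, ← hF2]
  have hnD0 : (0 : ℝ) ≤ (nD : ℝ) := Nat.cast_nonneg _
  rcases hnD0.eq_or_lt with hz | hpos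
  · rw [← hz, div_zero]
    exact mul_nonneg hc0 hF0
  · rw [div_le_iff₀ hpos]
    rcases hT0.eq_or_lt with hTz | hTpos
    · rw [← hTz]
      exact mul_nonneg (mul_nonneg hc0 hF0) hpos.le
    · -- T ^ 2 ≤ F2 * (c * nD * T)
      have h5 : T ^ 2 ≤ F2 * (c * nD * T) :=
        cs.trans (mul_le_mul_of_nonneg_left hg hF0)
      have h6 : T * T ≤ (c * F2 * nD) * T := by
        have e : F2 * (c * nD * T) = (c * F2 * nD) * T := by ring
        rw [← e, ← sq]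
        exact h5
      exact le_of_mul_le_mul_right h6 hTpos

end Vale.Agent.Lib.P335.Jo
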