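import Vale.Agent.Lib.P335.Jo.JOne
import Vale.Agent.Lib.P335.Jo.JTwo

/-!
# P335 / Johnson set: STEP 2 on a Johnson set
-/

namespace Vale.Agent.Lib.P335.Jo

open Finset

variable {α : Type*} [Fintype α] [DecidableEq α]

/-- STEP 2 on a Johnson set: for `f` with zero sum on the `k`-subsets of `α`, the sum of `f ^ 2`
is at most the sum over the pairs `q` of the flip energy at `q` minus the squared sum of `f`
over `DS k q` divided by the size of `DS k q`. -/
theorem johnson_step2 (k : ℕ) (f : Finset α → ℝ) (hf : ∑ J ∈ Sl α k, f J = 0) :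
    ∑ J ∈ Sl α k, f J ^ 2
      ≤ ∑ q ∈ Pr α, (1 / 4 * ∑ J ∈ DS k q, (f J - f (symmDiff J q)) ^ 2
          - (∑ J ∈ DS k q, f J) ^ 2 / ((DS k q).card : ℝ)) := by
  rw [Finset.sum_sub_distrib]
  by_cases hm : 2 ≤ Fintype.card α
  · have h1 := J1 k f hf
    have h2 := J2 k f hf hm
    have e : (Fintype.card α : ℝ) / 2 * ∑ J ∈ Sl α k, f J ^ 2
        - ((Fintype.card α : ℝ) - 2) / 2 * ∑ J ∈ Sl α k, f J ^ 2 = ∑ J ∈ Sl α k, f J ^ 2 := by
      ring
    linarith
  · have hm' : Fintype.card α < 2 := Nat.lt_of_not_le hm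
    have hPr : Pr α = ∅ := by
      unfold Pr
      rw [Finset.powersetCard_eq_empty, Finset.card_univ]
      exact hm'
    have hcard : (Sl α k).card ≤ 1 := by
      unfold Sl
      rw [Finset.card_powersetCard, Finset.card_univ]
      have h01 : Fintype.card α = 0 ∨ Fintype.card α = 1 := by omega
      rcases h01 with h0 | h1
      · rw [h0]
        cases k with
        | zero => simp
        | succ k => simp
      · rw [h1]
        rcases k with _ | _ | k
        · simp
        · simp
        · simp [Nat.choose_eq_zero_of_lt]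
    rw [Finset.card_le_one] at hcard
    have hall : ∀ J ∈ Sl α k, f J = 0 := by
      intro J hJ
      have h1 : ∑ J' ∈ Sl α k, f J' = f J :=
        Finset.sum_eq_single_of_mem J hJ (fun b hb hne => absurd (hcard b hb J hJ) hne)
      rw [← h1]
      exact hf
    have hL : ∑ J ∈ Sl α k, f J ^ 2 = 0 :=
      Finset.sum_eq_zero (fun J hJ => by rw [hall J hJ]; ring)
    rw [hL, hPr]
    simp

end Vale.Agent.Lib.P335.Jo
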