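import Vale.Agent.Lib.P335.Jo.Basic

/-!
# P335 / Johnson set, leaf J2a: the numbers `|DS k q|` and `|DS k q ∩ DS k q'|`
-/

namespace Vale.Agent.Lib.P335.Jo

open Finset

variable {α : Type*} [Fintype α] [DecidableEq α]

omit [Fintype α] [DecidableEq α] in
theorem map_symm_map (π : Equiv.Perm α) (J : Finset α) :
    (J.map π.toEmbedding).map π.symm.toEmbedding = J := by
  ext x
  simp

omit [Fintype α] [DecidableEq α] in
theorem map_map_symm (π : Equiv.Perm α) (J : Finset α) :
    (J.map π.symm.toEmbedding).map π.toEmbedding = J := by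
  ext x
  simp

theorem mem_DS {k : ℕ} {q J : Finset α} : J ∈ DS k q ↔ J.card = k ∧ Dq q J := by
  unfold DS Sl
  rw [Finset.mem_filter, Finset.mem_powersetCard]
  exact ⟨fun h => ⟨h.1.2, h.2⟩, fun h => ⟨⟨Finset.subset_univ _, h.1⟩, h.2⟩⟩

theorem mem_DS_map (π : Equiv.Perm α) (k : ℕ) (q J : Finset α) :
    J.map π.toEmbedding ∈ DS k (q.map π.toEmbedding) ↔ J ∈ DS k q := by
  rw [mem_DS, mem_DS, Finset.card_map]
  have e : Dq (q.map π.toEmbedding) (J.map π.toEmbedding) ↔ Dq q J := by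
    unfold Dq
    rw [← Finset.map_inter, Finset.card_map]
  rw [e]

theorem card_DS_map (π : Equiv.Perm α) (k : ℕ) (q : Finset α) :
    (DS k (q.map π.toEmbedding)).card = (DS k q).card := by
  refine Finset.card_nbij' (fun J => J.map π.symm.toEmbedding) (fun J => J.map π.toEmbedding)
    ?_ ?_ ?_ ?_
  · intro J hJ
    have hJ' : J ∈ DS k (q.map π.toEmbedding) := hJ
    rw [← map_map_symm π J] at hJ'
    exact (mem_DS_map π k q _).mp hJ'
  · intro J hJ
    exact (mem_DS_map π k q J).mpr hJ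
  · intro J _
    exact map_map_symm π J
  · intro J _
    exact map_symm_map π J

theorem card_DS_inter_map (π : Equiv.Perm α) (k : ℕ) (q q' : Finset α) :
    (DS k (q.map π.toEmbedding) ∩ DS k (q'.map π.toEmbedding)).card
      = (DS k q ∩ DS k q').card := by
  refine Finset.card_nbij' (fun J => J.map π.symm.toEmbedding) (fun J => J.map π.toEmbedding)
    ?_ ?_ ?_ ?_
  · intro J hJ
    have hJ' := Finset.mem_inter.mp (Finset.mem_coe.mp hJ)
    have h1 := hJ'.1
    have h2 := hJ'.2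
    rw [← map_map_symm π J] at h1 h2
    exact Finset.mem_coe.mpr (Finset.mem_inter.mpr
      ⟨(mem_DS_map π k q _).mp h1, (mem_DS_map π k q' _).mp h2⟩)
  · intro J hJ
    have hJ' := Finset.mem_inter.mp (Finset.mem_coe.mp hJ)
    exact Finset.mem_coe.mpr (Finset.mem_inter.mpr
      ⟨(mem_DS_map π k q J).mpr hJ'.1, (mem_DS_map π k q' J).mpr hJ'.2⟩)
  · intro J _
    exact map_map_symm π J
  · intro J _
    exact map_symm_map π J

omit [Fintype α] [DecidableEq α] in
/-- A permutation with four prescribed values. -/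
theorem exists_perm_four {a b a' b' c d c' d' : α}
    (h1 : a ≠ b) (h2 : a ≠ a') (h3 : a ≠ b') (h4 : b ≠ a') (h5 : b ≠ b') (h6 : a' ≠ b')
    (g1 : c ≠ d) (g2 : c ≠ c') (g3 : c ≠ d') (g4 : d ≠ c') (g5 : d ≠ d') (g6 : c' ≠ d') :
    ∃ π : Equiv.Perm α, π a = c ∧ π b = d ∧ π a' = c' ∧ π b' = d' := by
  have hx : Function.Injective ![a, b, a', b'] := by
    intro i j hij
    fin_cases i <;> fin_cases j <;> simp_all
  have hy : Function.Injective ![c, d, c', d'] := by
    intro i j hij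
    fin_cases i <;> fin_cases j <;> simp_all
  obtain ⟨π, hπ⟩ := Equiv.Perm.exists_extending_pair ![a, b, a', b'] ![c, d, c', d'] hx hy
  exact ⟨π, hπ 0, hπ 1, hπ 2, hπ 3⟩

omit [Fintype α] in
theorem map_pair (π : Equiv.Perm α) (a b : α) :
    ({a, b} : Finset α).map π.toEmbedding = {π a, π b} := by
  ext x
  simp

/-- `|DS k q|` does not depend on the pair `q`, and `|DS k q ∩ DS k q'|` does not depend on the
two disjoint pairs `q, q'`. -/
theorem exists_counts (k : ℕ) :
    ∃ nD n4 : ℕ, n4 ≤ nD ∧ (∀ q ∈ Pr α, (DS k q).card = nD) ∧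
      (∀ q ∈ Pr α, ∀ q' ∈ Pr α, Disjoint q q' → (DS k q ∩ DS k q').card = n4) := by
  by_cases hne : ∃ q ∈ Pr α, ∃ q' ∈ Pr α, Disjoint q q'
  · obtain ⟨q0, hq0, q0', hq0', hd0⟩ := hne
    have hD : ∀ q ∈ Pr α, (DS k q).card = (DS k q0).card := by
      intro q hq
      have hc : q0.card = q.card := by
        rw [(Finset.mem_powersetCard.mp hq0).2, (Finset.mem_powersetCard.mp hq).2]
      obtain ⟨π, hπ⟩ := Equiv.Perm.exists_map_finset_eq q0 q hc
      rw [← hπ]
      exact card_DS_map π k q0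
    refine ⟨(DS k q0).card, (DS k q0 ∩ DS k q0').card,
      Finset.card_le_card Finset.inter_subset_left, hD, ?_⟩
    intro q hq q' hq' hd
    obtain ⟨a, b, hab, rfl⟩ := Finset.card_eq_two.mp (Finset.mem_powersetCard.mp hq0).2
    obtain ⟨a', b', hab', rfl⟩ := Finset.card_eq_two.mp (Finset.mem_powersetCard.mp hq0').2
    obtain ⟨c, d, hcd, rfl⟩ := Finset.card_eq_two.mp (Finset.mem_powersetCard.mp hq).2
    obtain ⟨c', d', hcd', rfl⟩ := Finset.card_eq_two.mp (Finset.mem_powersetCard.mp hq').2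
    simp only [Finset.disjoint_insert_left, Finset.disjoint_singleton_left, Finset.mem_insert,
      Finset.mem_singleton, not_or] at hd0 hd
    obtain ⟨π, e1, e2, e3, e4⟩ := exists_perm_four hab hd0.1.1 hd0.1.2 hd0.2.1 hd0.2.2 hab'
      hcd hd.1.1 hd.1.2 hd.2.1 hd.2.2 hcd'
    have m1 : ({a, b} : Finset α).map π.toEmbedding = {c, d} := by rw [map_pair, e1, e2]
    have m2 : ({a', b'} : Finset α).map π.toEmbedding = {c', d'} := by rw [map_pair, e3, e4]
    rw [← m1, ← m2]
    exact card_DS_inter_map π k _ _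
  · by_cases hP : (Pr α).Nonempty
    · obtain ⟨q0, hq0⟩ := hP
      refine ⟨(DS k q0).card, 0, Nat.zero_le _, ?_, ?_⟩
      · intro q hq
        have hc : q0.card = q.card := by
          rw [(Finset.mem_powersetCard.mp hq0).2, (Finset.mem_powersetCard.mp hq).2]
        obtain ⟨π, hπ⟩ := Equiv.Perm.exists_map_finset_eq q0 q hc
        rw [← hπ]
        exact card_DS_map π k q0
      · intro q hq q' hq' hd
        exact absurd ⟨q, hq, q', hq', hd⟩ hne
    · refine ⟨0, 0, le_rfl, ?_, ?_⟩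
      · intro q hq
        exact absurd ⟨q, hq⟩ hP
      · intro q hq
        exact absurd ⟨q, hq⟩ hP

/-- For two pairs with one common element, half of `DS k q` lies in `DS k q'`. -/
theorem two_mul_card_DS_inter (k : ℕ) {q q' : Finset α} (hq : q.card = 2) (hq' : q'.card = 2)
    (h : (q ∩ q').card = 1) : 2 * (DS k q ∩ DS k q').card = (DS k q).card := by
  have hmem : ∀ J, J ∈ DS k q → symmDiff J q ∈ DS k q := by
    intro J hJ
    rw [mem_DS] at hJ ⊢
    exact ⟨by rw [card_symmDiff_of_dq hq hJ.2]; exact hJ.1, dq_symmDiff hq hJ.2⟩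
  have hiff : ∀ J, J ∈ DS k q → (symmDiff J q ∈ DS k q' ↔ J ∉ DS k q') := by
    intro J hJ
    rw [mem_DS] at hJ
    rw [mem_DS, mem_DS, dq_symmDiff_of_inter hq hq' h J, card_symmDiff_of_dq hq hJ.2]
    constructor
    · rintro ⟨_, h2⟩ ⟨_, h3⟩
      exact h2 h3
    · intro h2
      exact ⟨hJ.1, fun h3 => h2 ⟨hJ.1, h3⟩⟩
  have hcard : (DS k q ∩ DS k q').card = (DS k q \ DS k q').card := by
    refine Finset.card_nbij' (fun J => symmDiff J q) (fun J => symmDiff J q) ?_ ?_ ?_ ?_
    · intro J hJ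
      have hJ' := Finset.mem_inter.mp (Finset.mem_coe.mp hJ)
      refine Finset.mem_coe.mpr (Finset.mem_sdiff.mpr ⟨hmem J hJ'.1, ?_⟩)
      intro hc
      exact ((hiff J hJ'.1).mp hc) hJ'.2
    · intro J hJ
      have hJ' := Finset.mem_sdiff.mp (Finset.mem_coe.mp hJ)
      exact Finset.mem_coe.mpr (Finset.mem_inter.mpr
        ⟨hmem J hJ'.1, (hiff J hJ'.1).mpr hJ'.2⟩)
    · intro J _
      exact symmDiff_symmDiff_cancel_right q J
    · intro J _
      exact symmDiff_symmDiff_cancel_right q J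
  have h1 := Finset.card_sdiff_add_card_inter (DS k q) (DS k q')
  omega

end Vale.Agent.Lib.P335.Jo
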